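import Vale.Agent.P328.Main

namespace Vale.Agent.Results.P328.SampleCount

open Vale.Agent.P328

theorem result :
    (∃ (prog : Cmd) (C d : ℕ), ∀ (m n : ℕ) (r : Fin m → ℕ) (c : Fin n → ℕ),
      0 < m → 0 < n → ∑ i, r i = ∑ j, c j → ∀ ε : ℝ, 0 < ε → ε < 1 →
        (exec prog (input r c [Nat.ceil (1 / ε)], 0)).All (fun s =>
            (s.2 : ℝ) ≤ C * (inLen r c + Real.log (1 / ε)) ^ d ∧ outTable m n s.1 ∈ tables r c) ∧
          1 / 2 * ∑ X ∈ tables r c,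
            |(exec prog (input r c [Nat.ceil (1 / ε)], 0)).prob (fun s => outTable m n s.1 = X)
              - 1 / ((tables r c).card : ℝ)| ≤ ε) ∧
    (∃ (prog : Cmd) (C d : ℕ), ∀ (m n : ℕ) (r : Fin m → ℕ) (c : Fin n → ℕ),
      0 < m → 0 < n → ∑ i, r i = ∑ j, c j → ∀ ε δ : ℝ, 0 < ε → ε < 1 → 0 < δ → δ < 1 →
        (exec prog (input r c [Nat.ceil (1 / ε), Nat.ceil (1 / δ)], 0)).All (fun s =>
            (s.2 : ℝ) ≤ C * (inLen r c + 1 / ε + Real.log (1 / δ)) ^ d) ∧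
          1 - δ ≤ (exec prog (input r c [Nat.ceil (1 / ε), Nat.ceil (1 / δ)], 0)).prob fun s =>
            (1 - ε) * ((tables r c).card : ℝ) ≤ (s.1 3 0 : ℝ) ∧
              (s.1 3 0 : ℝ) ≤ (1 + ε) * ((tables r c).card : ℝ)) :=
  ⟨sampler, counter⟩

end Vale.Agent.Results.P328.SampleCount
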