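import Vale.Agent.P328b.Main

open Vale.Agent.P328b

theorem Vale.Agent.Results.P328.Sampler.result :
    ∃ (prog : Prog) (C k : ℕ), ∀ (m n : ℕ), 1 ≤ m → 1 ≤ n →
      ∀ (r : Fin m → ℕ) (c : Fin n → ℕ), ∑ i, r i = ∑ j, c j → ∀ ε : ℝ, 0 < ε → ε < 1 →
        (exec prog (input r c ⌈1 / ε⌉₊, 0)).All (fun s => output m n s.1 ∈ tables r c ∧
          (s.2 : ℝ) ≤ C * ((m : ℝ) + n + ∑ i, Real.logb 2 (r i + 2) + ∑ j, Real.logb 2 (c j + 2)
            + Real.log (1 / ε)) ^ k) ∧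
        (1 / 2 : ℝ) * ∑ X ∈ tables r c,
          |(exec prog (input r c ⌈1 / ε⌉₊, 0)).prob (fun s => output m n s.1 = X)
            - 1 / ((tables r c).card : ℝ)| ≤ ε :=
  Vale.Agent.P328b.main
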